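import Vale.Agent.P235P.Main
import Vale.Agent.P235G.NMain
import Vale.Agent.P235Q.Asm

namespace Vale.Agent.Results.P235.GenusApex

open Vale.Agent.P235

theorem result :
    (∃ C : ℝ, ∀ (V : Type) [Fintype V] (G : SimpleGraph V), G.Connected → Planar G →
      ∀ ℓ : Sym2 V → ℝ, (∀ e ∈ G.edgeSet, 0 < ℓ e) → EmbedsL1 (spDist G ℓ) C) ∧
    (∀ k : ℕ, ∃ C : ℝ, ∀ (V : Type) [Fintype V] (G : SimpleGraph V),
      G.Connected → TreewidthLE G k → ∀ ℓ : Sym2 V → ℝ, (∀ e ∈ G.edgeSet, 0 < ℓ e) →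
        EmbedsL1 (spDist G ℓ) C) ∧
    (∀ g : ℕ, ∃ C : ℝ, ∀ (V : Type) [Fintype V] (G : SimpleGraph V),
      G.Connected → EulerGenusLE G g → ∀ ℓ : Sym2 V → ℝ, (∀ e ∈ G.edgeSet, 0 < ℓ e) →
        EmbedsL1 (spDist G ℓ) C) ∧
    ∀ a g k : ℕ, ∃ C : ℝ, ∀ (V : Type) [Fintype V] (G : SimpleGraph V), G.Connected →
      (∃ A : Finset V, A.card ≤ a ∧ ∀ c : (G.induce (↑A : Set V)ᶜ).ConnectedComponent,
        EulerGenusLE c.toSimpleGraph g ∨ TreewidthLE c.toSimpleGraph k) →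
      ∀ ℓ : Sym2 V → ℝ, (∀ e ∈ G.edgeSet, 0 < ℓ e) → EmbedsL1 (spDist G ℓ) C :=
  ⟨Pl.planar_embed, treewidth_embed, Gn.euler_embed, fun a g k =>
    Ap.Bdd.apex (P := fun _ G => EulerGenusLE G g ∨ TreewidthLE G k)
      (Ap.Bdd.or (P := fun _ G => EulerGenusLE G g) (Q := fun _ G => TreewidthLE G k)
        (Gn.euler_embed g) (treewidth_embed k)) a⟩

end Vale.Agent.Results.P235.GenusApex
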