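import Vale.Agent.P235P.Main
import Vale.Agent.P235P.ZMain
import Vale.Agent.P235.Concrete

namespace Vale.Agent.Results.P235.Planar

open Vale.Agent.P235

theorem result :
    (∃ C : ℝ, ∀ (V : Type) [Fintype V] (G : SimpleGraph V), G.Connected → Planar G →
      ∀ ℓ : Sym2 V → ℝ, (∀ e ∈ G.edgeSet, 0 < ℓ e) → EmbedsL1 (spDist G ℓ) C) ∧
    ∀ k : ℕ, ∃ C : ℝ, ∀ (V : Type) [Fintype V] (G : SimpleGraph V),
      G.Connected → TreewidthLE G k → ∀ ℓ : Sym2 V → ℝ, (∀ e ∈ G.edgeSet, 0 < ℓ e) →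
        EmbedsL1 (spDist G ℓ) C := by
  refine ⟨?_, treewidth_embed⟩
  obtain ⟨C, hC⟩ := Pl.diag_embed
  refine ⟨C, fun V _ G hG hp ℓ hl => ?_⟩
  obtain ⟨S, D, pt, h1, h2⟩ := Pl.planar_diagram' G hG hp ℓ hl
  exact hC V S D pt _ h1 h2 (Pl.spDist_pos hG hl)

end Vale.Agent.Results.P235.Planar
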