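import Vale.Agent.P235P.Main
import Vale.Agent.P235W.XMain

namespace Vale.Agent.Results.P235.Structure

open Vale.Agent.P235

theorem result :
    (∃ C : ℝ, ∀ (V : Type) [Fintype V] (G : SimpleGraph V), G.Connected → Planar G →
      ∀ ℓ : Sym2 V → ℝ, (∀ e ∈ G.edgeSet, 0 < ℓ e) → EmbedsL1 (spDist G ℓ) C) ∧
    (∀ k : ℕ, ∃ C : ℝ, ∀ (V : Type) [Fintype V] (G : SimpleGraph V),
      G.Connected → TreewidthLE G k → ∀ ℓ : Sym2 V → ℝ, (∀ e ∈ G.edgeSet, 0 < ℓ e) →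
        EmbedsL1 (spDist G ℓ) C) ∧
    (∀ g k n : ℕ, ∃ C : ℝ, ∀ (V : Type) [Fintype V] (G : SimpleGraph V), G.Connected →
      (Round k)^[n] (fun _ H => TreewidthLE H k ∨ EulerGenusLE H g ∨ NearEmb H g k) V G →
      ∀ ℓ : Sym2 V → ℝ, (∀ e ∈ G.edgeSet, 0 < ℓ e) → EmbedsL1 (spDist G ℓ) C) ∧
    ∀ (P : ∀ W : Type, SimpleGraph W → Prop) (k : ℕ),
      (∃ C : ℝ, ∀ (V : Type) [Fintype V] (G : SimpleGraph V), G.Connected → P V G →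
        ∀ ℓ : Sym2 V → ℝ, (∀ e ∈ G.edgeSet, 0 < ℓ e) → EmbedsL1 (spDist G ℓ) C) →
      ∃ C : ℝ, ∀ (V : Type) [Fintype V] (G : SimpleGraph V), G.Connected → Round k P V G →
        ∀ ℓ : Sym2 V → ℝ, (∀ e ∈ G.edgeSet, 0 < ℓ e) → EmbedsL1 (spDist G ℓ) C :=
  ⟨Pl.planar_embed, treewidth_embed, fun g k n => Ws.rounds_iter k n (Ts.built_bdd g k 0),
    fun _ k h => Ws.round_bdd h k⟩

end Vale.Agent.Results.P235.Structure
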